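import Mathlib

/-!
# P083: unital embeddings into the norm ultrapower of the Cuntz algebra `O_2`
-/

open Filter Topology
open scoped ENNReal

namespace Vale.Agent.P083K

universe u

/-- the Hilbert space `ℓ²(ℕ)` -/
abbrev H0 : Type := lp (fun _ : ℕ => ℂ) 2

/-- the basis vector `e_n` -/
noncomputable def bv (n : ℕ) : H0 := lp.single 2 n (1 : ℂ)

/-- the operators `s 0`, `s 1` with `s i e_n = e_(2n+i)`: two isometries with
`s 0 (s 0)* + s 1 (s 1)* = 1` -/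
def IsCuntz (s : Fin 2 → (H0 →L[ℂ] H0)) : Prop := ∀ (i : Fin 2) (n : ℕ), s i (bv n) = bv (2 * n + i)

/-- the Cuntz algebra `O_2`: the C*-algebra generated by `s 0` and `s 1` -/
noncomputable def O2 (s : Fin 2 → (H0 →L[ℂ] H0)) : StarSubalgebra ℂ (H0 →L[ℂ] H0) :=
  (StarAlgebra.adjoin ℂ (Set.range s)).topologicalClosure

theorem o2_closed (s : Fin 2 → (H0 →L[ℂ] H0)) : IsClosed (O2 s : Set (H0 →L[ℂ] H0)) :=
  StarSubalgebra.isClosed_topologicalClosure _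

noncomputable instance o2CStar (s : Fin 2 → (H0 →L[ℂ] H0)) : CStarAlgebra (O2 s) :=
  haveI : IsClosed (O2 s : Set (H0 →L[ℂ] H0)) := o2_closed s
  StarSubalgebra.cstarAlgebra (O2 s)

/-- `A` embeds unitally into the norm ultrapower `O^ω = ℓ^∞(ℕ, O) / {x : lim_(n → ω) ‖x n‖ = 0}`:
the embedding sends `a` to the class of the bounded sequence `n ↦ φ n a`. -/
def Embeds (ω : Ultrafilter ℕ) (O A : Type) [CStarAlgebra O] [CStarAlgebra A] : Prop :=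
  ∃ φ : ℕ → A → O, (∀ a, ∃ C : ℝ, ∀ n, ‖φ n a‖ ≤ C) ∧
    Tendsto (fun n => ‖φ n 1 - 1‖) ω (𝓝 0) ∧
    (∀ a b, Tendsto (fun n => ‖φ n (a + b) - (φ n a + φ n b)‖) ω (𝓝 0)) ∧
    (∀ a b, Tendsto (fun n => ‖φ n (a * b) - φ n a * φ n b‖) ω (𝓝 0)) ∧
    (∀ (c : ℂ) (a : A), Tendsto (fun n => ‖φ n (c • a) - c • φ n a‖) ω (𝓝 0)) ∧
    (∀ a, Tendsto (fun n => ‖φ n (star a) - star (φ n a)‖) ω (𝓝 0)) ∧
    ∀ a, Tendsto (fun n => ‖φ n a‖) ω (𝓝 ‖a‖)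

/-- `P` is the unital full free product of `A` and `B` (with the canonical maps `iA`, `iB`) -/
structure IsFreeProd {A B P : Type} [CStarAlgebra A] [CStarAlgebra B] [CStarAlgebra P]
    (iA : A →⋆ₐ[ℂ] P) (iB : B →⋆ₐ[ℂ] P) : Prop where
  gen : (StarAlgebra.adjoin ℂ (Set.range iA ∪ Set.range iB)).topologicalClosure = ⊤
  univ : ∀ (D : Type) [CStarAlgebra D] (f : A →⋆ₐ[ℂ] D) (g : B →⋆ₐ[ℂ] D),
    ∃ h : P →⋆ₐ[ℂ] D, (∀ a, h (iA a) = f a) ∧ ∀ b, h (iB b) = g b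

end Vale.Agent.P083K
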